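import Vale.Agent.P032.S5.H483.Irr

/-!
# P032: rhombus lemma and the crossing of two chains

`V` and `Q` are points with at most three colours whose palettes cover all colours, `r` is a common
neighbour at distance one, `V ≠ Q` and `V + Q ≠ 2 r`.  Then `T r` has two colours of `T V` and two
colours of `T Q` (`Irr.rhombus`).  So no connected set in the colours `c`, `d` can cross `S(r)` when
`T Q = {c, d, f}` (`Irr.no_cross`).
-/

open Set Filter Topology Metric

noncomputable section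

namespace Vale.Agent.P032.Six

variable {k : ℕ} {U : Fin k → Set ℂ} {T : ℂ → Set (Fin k)}

/-- **Rhombus lemma** -/
theorem Irr.rhombus (h : Irr U T) {V Q r : ℂ} (hV : (T V).ncard ≤ 3)
    (hcov : ∀ i, i ∈ T V ∨ i ∈ T Q) (hne : V ≠ Q) (hne2 : V + Q ≠ 2 * r)
    (hr : dist r V = 1) (hr' : dist r Q = 1) : 2 ≤ (T r ∩ T Q).ncard := by
  have key : ∀ s, ∃ t ∈ T r ∩ T Q, t ≠ s := by
    intro s
    obtain ⟨t, h1, h2, h3⟩ := h.five (u := Q) (u' := V) (q := r) hV (fun i => (hcov i).symm)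
      (Ne.symm hne) hr' hr (by rwa [add_comm]) s
    exact ⟨t, ⟨h1, h2⟩, h3⟩
  obtain ⟨i, -⟩ := h.ne r
  obtain ⟨s, hs, -⟩ := key i
  obtain ⟨t, ht, hts⟩ := key s
  exact (Set.one_lt_ncard (Set.toFinite _)).2 ⟨t, ht, s, hs, hts⟩

/-- **crossing**: a connected set in the colours `c`, `d` does not cross `S(r)` if `r` is a common
neighbour of `V` and `Q`, `T Q ⊆ {c, d, f}` -/
theorem Irr.no_cross (h : Irr U T) {V Q r : ℂ} {c d f : Fin k} (hV : (T V).ncard ≤ 3)
    (hcov : ∀ i, i ∈ T V ∨ i ∈ T Q) (hQ : T Q ⊆ {c, d, f}) (hne : V ≠ Q) (hne2 : V + Q ≠ 2 * r)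
    (hr : dist r V = 1) (hr' : dist r Q = 1) {A : Set ℂ} (hA : IsPreconnected A)
    (hc : A ⊆ closure (U c)) (hd : A ⊆ closure (U d)) {a b : ℂ} (ha : a ∈ A) (hb : b ∈ A)
    (ha1 : dist a r < 1) (hb1 : 1 < dist b r) : False := by
  obtain ⟨t, h1, h2, h3⟩ := h.five (u := Q) (u' := V) (q := r) hV (fun i => (hcov i).symm)
    (Ne.symm hne) hr' hr (by rwa [add_comm]) f
  rcases hQ h2 with rfl | rfl | h4
  · exact h.mx.wlemma hA hc ha hb ha1 hb1 (h.sub r h1)
  · exact h.mx.wlemma hA hd ha hb ha1 hb1 (h.sub r h1)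
  · exact h3 h4

end Vale.Agent.P032.Six
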