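import Mathlib

/-! P032, T2*, piece P2 (needs row 25, helper161): classification of a graph on six vertices with
an isolated vertex: a pentagon, or a pentagon with one chord. Pure finite combinatorics. -/

namespace Vale.Agent.P032.R2.H161.Sil

/-- adjacency of the graph on `Fin 5` given by ten bits -/
def adj5 (b01 b02 b03 b04 b12 b13 b14 b23 b24 b34 : Bool) : Fin 5 → Fin 5 → Bool
  | 0, 1 => b01 | 1, 0 => b01
  | 0, 2 => b02 | 2, 0 => b02
  | 0, 3 => b03 | 3, 0 => b03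
  | 0, 4 => b04 | 4, 0 => b04
  | 1, 2 => b12 | 2, 1 => b12
  | 1, 3 => b13 | 3, 1 => b13
  | 1, 4 => b14 | 4, 1 => b14
  | 2, 3 => b23 | 3, 2 => b23
  | 2, 4 => b24 | 4, 2 => b24
  | 3, 4 => b34 | 4, 3 => b34
  | _, _ => false

/-- the sixty placements of the pentagon with a marked chord -/
def perms5 : List (Fin 5 × Fin 5 × Fin 5 × Fin 5 × Fin 5) := [
  (0, 1, 2, 3, 4),
  (0, 1, 2, 4, 3),
  (0, 1, 3, 2, 4),
  (0, 1, 3, 4, 2),
  (0, 1, 4, 2, 3),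
  (0, 1, 4, 3, 2),
  (0, 2, 1, 3, 4),
  (0, 2, 1, 4, 3),
  (0, 2, 3, 1, 4),
  (0, 2, 3, 4, 1),
  (0, 2, 4, 1, 3),
  (0, 2, 4, 3, 1),
  (0, 3, 1, 2, 4),
  (0, 3, 1, 4, 2),
  (0, 3, 2, 1, 4),
  (0, 3, 2, 4, 1),
  (0, 3, 4, 1, 2),
  (0, 3, 4, 2, 1),
  (0, 4, 1, 2, 3),
  (0, 4, 1, 3, 2),
  (0, 4, 2, 1, 3),
  (0, 4, 2, 3, 1),
  (0, 4, 3, 1, 2),
  (0, 4, 3, 2, 1),
  (1, 2, 0, 3, 4),
  (1, 2, 0, 4, 3),
  (1, 2, 3, 0, 4),
  (1, 2, 3, 4, 0),
  (1, 2, 4, 0, 3),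
  (1, 2, 4, 3, 0),
  (1, 3, 0, 2, 4),
  (1, 3, 0, 4, 2),
  (1, 3, 2, 0, 4),
  (1, 3, 2, 4, 0),
  (1, 3, 4, 0, 2),
  (1, 3, 4, 2, 0),
  (1, 4, 0, 2, 3),
  (1, 4, 0, 3, 2),
  (1, 4, 2, 0, 3),
  (1, 4, 2, 3, 0),
  (1, 4, 3, 0, 2),
  (1, 4, 3, 2, 0),
  (2, 3, 0, 1, 4),
  (2, 3, 0, 4, 1),
  (2, 3, 1, 0, 4),
  (2, 3, 1, 4, 0),
  (2, 3, 4, 0, 1),
  (2, 3, 4, 1, 0),
  (2, 4, 0, 1, 3),
  (2, 4, 0, 3, 1),
  (2, 4, 1, 0, 3),
  (2, 4, 1, 3, 0),
  (2, 4, 3, 0, 1),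
  (2, 4, 3, 1, 0),
  (3, 4, 0, 1, 2),
  (3, 4, 0, 2, 1),
  (3, 4, 1, 0, 2),
  (3, 4, 1, 2, 0),
  (3, 4, 2, 0, 1),
  (3, 4, 2, 1, 0)]

/-- pentagon placement with at most the chord `{0, 1}` -/
def good5 (A : Fin 5 → Fin 5 → Bool) (f : Fin 5 × Fin 5 × Fin 5 × Fin 5 × Fin 5) : Bool :=
  A f.1 f.2.2.1 && A f.2.1 f.2.2.2.1 && A f.2.2.1 f.2.2.2.2 && A f.2.2.2.1 f.1 && A f.2.2.2.2 f.2.1 &&
  !A f.2.1 f.2.2.1 && !A f.2.2.1 f.2.2.2.1 && !A f.2.2.2.1 f.2.2.2.2 && !A f.2.2.2.2 f.1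

def deg5 (A : Fin 5 → Fin 5 → Bool) : Bool :=
  (List.finRange 5).all fun i => !((List.finRange 5).all fun j => (j == i) || A i j)

/-- the three perfect matchings of the four vertices other than `k` -/
def mat3 : Fin 5 → List (Fin 5 × Fin 5 × Fin 5 × Fin 5)
  | 0 => [(1, 2, 3, 4), (1, 3, 2, 4), (1, 4, 2, 3)]
  | 1 => [(0, 2, 3, 4), (0, 3, 2, 4), (0, 4, 2, 3)]
  | 2 => [(0, 1, 3, 4), (0, 3, 1, 4), (0, 4, 1, 3)]
  | 3 => [(0, 1, 2, 4), (0, 2, 1, 4), (0, 4, 1, 2)]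
  | 4 => [(0, 1, 2, 3), (0, 2, 1, 3), (0, 3, 1, 2)]

def cl5 (A : Fin 5 → Fin 5 → Bool) : Bool :=
  (List.finRange 5).all fun k => (mat3 k).any fun q => A q.1 q.2.1 && A q.2.2.1 q.2.2.2

def cut5 (A : Fin 5 → Fin 5 → Bool) (x : ℕ) : Bool :=
  (List.finRange 5).all fun i => !(x.testBit i) ||
    (List.finRange 5).all fun j => x.testBit j || A i j

def all5 (A : Fin 5 → Fin 5 → Bool) : Bool :=
  !(deg5 A && cl5 A) || perms5.any (good5 A) ||
    (List.range 31).any fun x => x != 0 && cut5 A x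

theorem key5 : ∀ b01 b02 b03 b04 b12 b13 b14 b23 b24 b34 : Bool,
    all5 (adj5 b01 b02 b03 b04 b12 b13 b14 b23 b24 b34) = true := by
  decide +kernel

theorem mat3_dec : ∀ k a b c d : Fin 5, (a != c && a != d && b != c && b != d && a != b && c != d &&
    k != a && k != b && k != c && k != d) = true → ((mat3 k).any fun q =>
      (((a == q.1 && b == q.2.1) || (b == q.1 && a == q.2.1)) &&
        ((c == q.2.2.1 && d == q.2.2.2) || (d == q.2.2.1 && c == q.2.2.2))) ||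
      (((c == q.1 && d == q.2.1) || (d == q.1 && c == q.2.1)) &&
        ((a == q.2.2.1 && b == q.2.2.2) || (b == q.2.2.1 && a == q.2.2.2)))) = true := by
  decide +kernel

theorem mat3_spec (k a b c d : Fin 5) (h1 : a ≠ c) (h2 : a ≠ d) (h3 : b ≠ c) (h4 : b ≠ d)
    (h5 : a ≠ b) (h6 : c ≠ d) (h7 : k ≠ a) (h8 : k ≠ b) (h9 : k ≠ c) (h10 : k ≠ d) :
    ∃ q ∈ mat3 k,
      (((a = q.1 ∧ b = q.2.1) ∨ (b = q.1 ∧ a = q.2.1)) ∧
        ((c = q.2.2.1 ∧ d = q.2.2.2) ∨ (d = q.2.2.1 ∧ c = q.2.2.2))) ∨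
      (((c = q.1 ∧ d = q.2.1) ∨ (d = q.1 ∧ c = q.2.1)) ∧
        ((a = q.2.2.1 ∧ b = q.2.2.2) ∨ (b = q.2.2.1 ∧ a = q.2.2.2))) := by
  have h := mat3_dec k a b c d (by simp [h1, h2, h3, h4, h5, h6, h7, h8, h9, h10])
  rw [List.any_eq_true] at h
  obtain ⟨q, hq, h⟩ := h
  refine ⟨q, hq, ?_⟩
  simpa only [Bool.or_eq_true, Bool.and_eq_true, beq_iff_eq] using h

theorem mask5 : ∀ x : Fin 31, x.val ≠ 0 → (∃ i : Fin 5, x.val.testBit i = true) ∧
    ∃ i : Fin 5, x.val.testBit i = false := by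
  decide +kernel

theorem perms5_inj : ∀ p ∈ perms5, Function.Injective ![p.1, p.2.1, p.2.2.1, p.2.2.2.1, p.2.2.2.2] := by
  decide +kernel

theorem classify (M : Fin 6 → Fin 6 → Prop) (s : Fin 6) (symm : ∀ a b, M a b → M b a)
    (irr : ∀ a, ¬ M a a) (hs : ∀ a, ¬ M s a) (hdeg : ∀ v u, v ≠ u → ¬ ∀ w, w ≠ v → w ≠ u → M v w)
    (hcut : ∀ X Y : Set (Fin 6), X.Nonempty → Y.Nonempty → Disjoint X Y → 5 ≤ (X ∪ Y).ncard →
      ¬ ∀ x ∈ X, ∀ y ∈ Y, M x y)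
    (hcl : ∀ k, k ≠ s → ∃ a b c d, M a b ∧ M c d ∧ a ≠ c ∧ a ≠ d ∧ b ≠ c ∧ b ≠ d ∧ k ≠ a ∧ k ≠ b ∧
      k ≠ c ∧ k ≠ d) :
    ∃ f : Fin 5 → Fin 6, Function.Injective f ∧ (∀ i, f i ≠ s) ∧ (∀ i, M (f i) (f (i + 2))) ∧
      (∀ i, M (f i) (f (i + 1)) → i = 0) := by
  classical
  set e : Fin 5 → Fin 6 := s.succAbove with he
  have hei : Function.Injective e := Fin.succAbove_right_injective
  have hes : ∀ i, e i ≠ s := fun i => Fin.succAbove_ne s i
  have hsurj : ∀ w, w ≠ s → ∃ i, e i = w := fun w hw => Fin.exists_succAbove_eq hw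
  set A : Fin 5 → Fin 5 → Bool := adj5 (decide (M (e 0) (e 1))) (decide (M (e 0) (e 2)))
    (decide (M (e 0) (e 3))) (decide (M (e 0) (e 4))) (decide (M (e 1) (e 2)))
    (decide (M (e 1) (e 3))) (decide (M (e 1) (e 4))) (decide (M (e 2) (e 3)))
    (decide (M (e 2) (e 4))) (decide (M (e 3) (e 4))) with hAdef
  have hsym : ∀ a b, M a b ↔ M b a := fun a b => ⟨symm a b, symm b a⟩
  have hA : ∀ i j, A i j = true ↔ M (e i) (e j) := by
    intro i j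
    rw [hAdef]
    fin_cases i <;> fin_cases j <;> simp [adj5, irr] <;> exact hsym _ _
  have hall : all5 A = true := key5 _ _ _ _ _ _ _ _ _ _
  have hdeg5 : deg5 A = true := by
    unfold deg5
    rw [List.all_eq_true]
    intro i _
    by_contra hcon
    have h1 : ∀ j, j ≠ i → A i j = true := by
      intro j hj
      simp only [Bool.not_eq_true, Bool.not_eq_false', List.all_eq_true, Bool.or_eq_true,
        beq_iff_eq] at hcon
      rcases hcon j (List.mem_finRange j) with h | h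
      · exact absurd h hj
      · exact h
    refine hdeg (e i) s (hes i) ?_
    intro w hw1 hw2
    obtain ⟨j, rfl⟩ := hsurj w hw2
    exact (hA i j).1 (h1 j (fun h => hw1 (by rw [h])))
  have hcl5 : cl5 A = true := by
    unfold cl5
    rw [List.all_eq_true]
    intro k _
    obtain ⟨a, b, c, d, hab, hcd, hac, had, hbc, hbd, hka, hkb, hkc, hkd⟩ := hcl (e k) (hes k)
    have hns : ∀ a b, M a b → a ≠ s := by
      rintro a b h rfl
      exact hs _ h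
    obtain ⟨a, rfl⟩ := hsurj a (hns _ _ hab)
    obtain ⟨b, rfl⟩ := hsurj b (hns _ _ (symm _ _ hab))
    obtain ⟨c, rfl⟩ := hsurj c (hns _ _ hcd)
    obtain ⟨d, rfl⟩ := hsurj d (hns _ _ (symm _ _ hcd))
    have hne : ∀ {x y}, e x ≠ e y → x ≠ y := fun h h' => h (by rw [h'])
    have hab' : a ≠ b := by
      rintro rfl
      exact irr _ hab
    have hcd' : c ≠ d := by
      rintro rfl
      exact irr _ hcd
    obtain ⟨q, hq, hq2⟩ := mat3_spec k a b c d (hne hac) (hne had) (hne hbc) (hne hbd) hab' hcd'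
      (hne hka) (hne hkb) (hne hkc) (hne hkd)
    rw [List.any_eq_true]
    refine ⟨q, hq, ?_⟩
    have hba := symm _ _ hab
    have hdc := symm _ _ hcd
    rw [Bool.and_eq_true, hA, hA]
    rcases hq2 with ⟨h1 | h1, h2 | h2⟩ | ⟨h1 | h1, h2 | h2⟩ <;>
      (obtain ⟨h3, h4⟩ := h1; obtain ⟨h5, h6⟩ := h2; rw [← h3, ← h4, ← h5, ← h6]) <;>
      exact ⟨by assumption, by assumption⟩
  unfold all5 at hall
  rw [hdeg5, hcl5] at hall
  simp only [Bool.and_self, Bool.not_true, Bool.false_or, Bool.or_eq_true, List.any_eq_true] at hall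
  rcases hall with ⟨p, hp, hg⟩ | ⟨x, hx, hcx⟩
  · refine ⟨fun i => e (![p.1, p.2.1, p.2.2.1, p.2.2.2.1, p.2.2.2.2] i),
      hei.comp (perms5_inj p hp), fun i => hes _, ?_, ?_⟩
    · unfold good5 at hg
      simp only [Bool.and_eq_true, hA] at hg
      intro i
      fin_cases i
      · exact hg.1.1.1.1.1.1.1.1
      · exact hg.1.1.1.1.1.1.1.2
      · exact hg.1.1.1.1.1.1.2
      · exact hg.1.1.1.1.1.2
      · exact hg.1.1.1.1.2
    · unfold good5 at hg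
      simp only [Bool.and_eq_true, Bool.not_eq_true', ← Bool.not_eq_true, hA] at hg
      intro i hi
      by_contra hne
      fin_cases i
      · exact hne rfl
      · exact hg.1.1.1.2 hi
      · exact hg.1.1.2 hi
      · exact hg.1.2 hi
      · exact hg.2 hi
  · exfalso
    simp only [Bool.and_eq_true, bne_iff_ne, ne_eq, List.mem_range] at hcx hx
    obtain ⟨hx0, hc⟩ := hcx
    obtain ⟨⟨i0, hi0⟩, ⟨j0, hj0⟩⟩ := mask5 ⟨x, hx⟩ hx0
    simp only at hi0 hj0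
    have hcomp : ∀ i j : Fin 5, x.testBit i = true → x.testBit j = false → M (e i) (e j) := by
      intro i j hi hj
      unfold cut5 at hc
      rw [List.all_eq_true] at hc
      have h1 := hc i (List.mem_finRange i)
      rw [Bool.or_eq_true, hi] at h1
      rcases h1 with h1 | h1
      · simp at h1
      · rw [List.all_eq_true] at h1
        have h2 := h1 j (List.mem_finRange j)
        rw [Bool.or_eq_true, hj] at h2
        rcases h2 with h2 | h2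
        · simp at h2
        · exact (hA i j).1 h2
    refine hcut (e '' {i | x.testBit i = true}) (e '' {i | x.testBit i = false}) ⟨e i0, i0, hi0, rfl⟩
      ⟨e j0, j0, hj0, rfl⟩ ?_ ?_ ?_
    · rw [Set.disjoint_image_iff hei, Set.disjoint_left]
      intro i hi hj
      simp only [Set.mem_ofPred_eq] at hi hj
      rw [hi] at hj
      exact absurd hj (by decide)
    · rw [← Set.image_union]
      have : ({i : Fin 5 | x.testBit i = true} ∪ {i : Fin 5 | x.testBit i = false}) = Set.univ := by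
        ext i
        simp only [Set.mem_union, Set.mem_ofPred_eq, Set.mem_univ, iff_true]
        cases x.testBit i <;> simp
      rw [this, Set.ncard_image_of_injective _ hei, Set.ncard_univ]
      simp
    · rintro _ ⟨i, hi, rfl⟩ _ ⟨j, hj, rfl⟩
      exact hcomp i j hi hj

end Vale.Agent.P032.R2.H161.Sil

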