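import Vale.Agent.P032.S5.H80.Anti

/-!
# P032: generic choice of times

Points which depend on several times (`z + ∑ a, n a * cis (s a)` with two coefficients which are not
parallel) avoid `XX U` for a suitable choice of the times in any open set.  So every such point has a
colour, two points at distance one have different colours, and a point at distance one from a point
with the colours `P` has a colour outside `P`.  No condition on the orders of points.
-/

open Set Filter Topology Metric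

noncomputable section

namespace Vale.Agent.P032.Six

variable {k : ℕ} {U : Fin k → Set ℂ} {T : ℂ → Set (Fin k)}

/-- `XX U` is not a neighbourhood of any point -/
theorem Mx.XX_notMem_nhds (h : Mx U) (x : ℂ) : XX U ∉ 𝓝 x := by
  intro hx
  obtain ⟨y, hyU, hy⟩ := h.dense.inter_nhds_nonempty hx
  obtain ⟨i, hi⟩ := mem_iUnion.1 hyU
  exact hy i hi

/-- one open map -/
theorem Mx.generic_one (h : Mx U) {E : Type*} [NormedAddCommGroup E] [NormedSpace ℝ E]
    [CompleteSpace E] {O : Set E} (hO : IsOpen O) (hne : O.Nonempty) {p : E → ℂ}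
    (hp : ∀ s ∈ O, ∃ f' : E →L[ℝ] ℂ, HasStrictFDerivAt p f' s ∧ f'.range = ⊤) :
    ∃ O' ⊆ O, IsOpen O' ∧ O'.Nonempty ∧ ∀ s ∈ O', p s ∉ XX U := by
  obtain ⟨s0, hs0⟩ := hne
  have key : ∃ s ∈ O, p s ∉ XX U := by
    by_contra hcon
    push Not at hcon
    obtain ⟨f', hf', hr⟩ := hp s0 hs0
    refine h.XX_notMem_nhds (p s0) ?_
    rw [← hf'.map_nhds_eq_of_surj hr]
    exact Filter.mem_map.2 (mem_of_superset (hO.mem_nhds hs0) hcon)
  obtain ⟨s, hs, hsX⟩ := key
  obtain ⟨f', hf', -⟩ := hp s hs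
  have h1 : ∀ᶠ t in 𝓝 s, p t ∉ XX U :=
    hf'.continuousAt.eventually (h.isClosed_XX.isOpen_compl.mem_nhds hsX)
  obtain ⟨O', h2, h3, h4⟩ := _root_.mem_nhds_iff.1 (h1.and (hO.mem_nhds hs))
  exact ⟨O', fun t ht => (h2 ht).2, h3, ⟨s, h4⟩, fun t ht => (h2 ht).1⟩

/-- **generic choice**, finitely many open maps -/
theorem Mx.generic (h : Mx U) {E : Type*} [NormedAddCommGroup E] [NormedSpace ℝ E]
    [CompleteSpace E] {O : Set E} (hO : IsOpen O) (hne : O.Nonempty) {ι : Type*} (S : Finset ι)
    (p : ι → E → ℂ)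
    (hp : ∀ i ∈ S, ∀ s ∈ O, ∃ f' : E →L[ℝ] ℂ, HasStrictFDerivAt (p i) f' s ∧ f'.range = ⊤) :
    ∃ O' ⊆ O, IsOpen O' ∧ O'.Nonempty ∧ ∀ s ∈ O', ∀ i ∈ S, p i s ∉ XX U := by
  classical
  induction S using Finset.induction_on with
  | empty => exact ⟨O, Subset.rfl, hO, hne, fun s _ i hi => absurd hi (Finset.notMem_empty i)⟩
  | insert a S ha ih =>
    obtain ⟨O1, h1, h2, h3, h4⟩ := ih fun i hi => hp i (Finset.mem_insert_of_mem hi)
    obtain ⟨O2, h5, h6, h7, h8⟩ := h.generic_one h2 h3
      (p := p a) fun s hs => hp a (Finset.mem_insert_self a S) s (h1 hs)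
    refine ⟨O2, h5.trans h1, h6, h7, fun s hs i hi => ?_⟩
    rcases Finset.mem_insert.1 hi with rfl | hi
    · exact h8 s hs
    · exact h4 s (h5 hs) i hi

/-- the point with coefficients `n` at the times `s` -/
def tpt {r : ℕ} (z : ℂ) (n : Fin r → ℂ) (s : Fin r → ℝ) : ℂ := z + ∑ a, n a * cis (s a)

/-- derivative of `tpt` -/
def dtpt {r : ℕ} (n : Fin r → ℂ) (s : Fin r → ℝ) : (Fin r → ℝ) →L[ℝ] ℂ :=
  ∑ a, (ContinuousLinearMap.proj (R := ℝ) (φ := fun _ : Fin r => ℝ) a).smulRight
    (n a * (Complex.I * cis (s a)))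

theorem dtpt_apply {r : ℕ} (n : Fin r → ℂ) (s v : Fin r → ℝ) :
    dtpt n s v = ∑ a, (v a : ℂ) * (n a * (Complex.I * cis (s a))) := by
  simp [dtpt]

theorem contDiff_cis : ContDiff ℝ 1 cis := by
  unfold cis
  exact (Complex.ofRealCLM.contDiff.mul contDiff_const).cexp

theorem hasStrictFDerivAt_tpt {r : ℕ} (z : ℂ) (n : Fin r → ℂ) (s : Fin r → ℝ) :
    HasStrictFDerivAt (tpt z n) (dtpt n s) s := by
  have h1 : ∀ a, HasStrictFDerivAt (fun s : Fin r → ℝ => n a * cis (s a))
      ((ContinuousLinearMap.proj (R := ℝ) (φ := fun _ : Fin r => ℝ) a).smulRight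
        (n a * (Complex.I * cis (s a)))) s := by
    intro a
    have h2 : HasStrictDerivAt cis (Complex.I * cis (s a)) (s a) :=
      contDiff_cis.contDiffAt.hasStrictDerivAt' (hasDerivAt_cis (s a)) one_ne_zero
    have h3 : HasStrictFDerivAt (fun s : Fin r → ℝ => s a)
        (ContinuousLinearMap.proj (R := ℝ) (φ := fun _ : Fin r => ℝ) a) s :=
      (ContinuousLinearMap.proj (R := ℝ) (φ := fun _ : Fin r => ℝ) a).hasStrictFDerivAt
    have h4 := (h2.const_mul (n a)).hasStrictFDerivAt.comp s h3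
    refine h4.congr_fderiv ?_
    ext v
    simp
  have h5 := HasStrictFDerivAt.fun_sum (u := Finset.univ) fun a _ => h1 a
  exact h5.const_add z

/-- a linear map with two values which are not parallel is onto -/
theorem range_eq_top {E : Type*} [AddCommGroup E] [Module ℝ E] {f : E →ₗ[ℝ] ℂ} {v w : E}
    (h : cr (f v) (f w) ≠ 0) : LinearMap.range f = ⊤ := by
  rw [LinearMap.range_eq_top]
  intro x
  have hc : (cr (f v) (f w) : ℝ) ≠ 0 := h
  refine ⟨(cr x (f w) / cr (f v) (f w)) • v + (cr (f v) x / cr (f v) (f w)) • w, ?_⟩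
  rw [map_add, map_smul, map_smul]
  apply Complex.ext
  · simp only [Complex.add_re, Complex.real_smul, Complex.mul_re, Complex.ofReal_re,
      Complex.ofReal_im, zero_mul, sub_zero]
    rw [div_mul_eq_mul_div, div_mul_eq_mul_div, ← add_div, div_eq_iff hc]
    unfold cr
    ring
  · simp only [Complex.add_im, Complex.real_smul, Complex.mul_im, Complex.ofReal_re,
      Complex.ofReal_im, zero_mul, add_zero]
    rw [div_mul_eq_mul_div, div_mul_eq_mul_div, ← add_div, div_eq_iff hc]
    unfold cr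
    ring

/-- two coefficients which are not parallel at the times `s` -/
def Two {r : ℕ} (n : Fin r → ℂ) (s : Fin r → ℝ) : Prop :=
  ∃ a b, cr (n a * cis (s a)) (n b * cis (s b)) ≠ 0

theorem cr_I_mul (u v : ℂ) : cr (Complex.I * u) (Complex.I * v) = cr u v := by
  unfold cr
  simp
  ring

theorem range_dtpt {r : ℕ} {n : Fin r → ℂ} {s : Fin r → ℝ} (h : Two n s) :
    (dtpt n s).range = ⊤ := by
  obtain ⟨a, b, hab⟩ := h
  refine range_eq_top (f := (dtpt n s : (Fin r → ℝ) →ₗ[ℝ] ℂ)) (v := Pi.single a 1)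
    (w := Pi.single b 1) ?_
  have key : ∀ a, (dtpt n s) (Pi.single a 1) = Complex.I * (n a * cis (s a)) := by
    intro a
    rw [dtpt_apply, Finset.sum_eq_single a]
    · simp
      ring
    · intro b _ hb
      simp [Pi.single_eq_of_ne hb]
    · intro h
      exact absurd (Finset.mem_univ a) h
  rw [ContinuousLinearMap.coe_coe, key, key, cr_I_mul]
  exact hab

/-- **Generic times.** -/
theorem Mx.generic_times (h : Mx U) {r : ℕ} {O : Set (Fin r → ℝ)} (hO : IsOpen O)
    (hne : O.Nonempty) {ι : Type*} (S : Finset ι) (z : ι → ℂ) (n : ι → Fin r → ℂ)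
    (hn : ∀ i ∈ S, ∀ s ∈ O, Two (n i) s) :
    ∃ O' ⊆ O, IsOpen O' ∧ O'.Nonempty ∧ ∀ s ∈ O', ∀ i ∈ S, tpt (z i) (n i) s ∉ XX U :=
  h.generic hO hne S (fun i => tpt (z i) (n i)) fun i hi s hs =>
    ⟨dtpt (n i) s, hasStrictFDerivAt_tpt (z i) (n i) s, range_dtpt (hn i hi s hs)⟩

/-- a point outside `XX` has a colour -/
theorem exists_colour {x : ℂ} (hx : x ∉ XX U) : ∃ i, x ∈ U i := by
  by_contra hcon
  push Not at hcon
  exact hx hcon

/-- two points at distance one have different colours -/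
theorem Mx.colour_ne (h : Mx U) {x y : ℂ} {i j : Fin k} (hx : x ∈ U i) (hy : y ∈ U j)
    (hxy : dist x y = 1) : i ≠ j := by
  rintro rfl
  exact h.notMem' hx hxy (subset_closure hy)

/-- a point at distance one from `y` has no colour of `Pal U y` -/
theorem Mx.colour_notMem (h : Mx U) {x y : ℂ} {i : Fin k} (hx : x ∈ U i)
    (hxy : dist x y = 1) : i ∉ Pal U y := h.notMem' hx hxy

/-- **Colouring of generic points.**  For every open set of times there are times in it and a map
`c` such that the point `z i + ∑ a, n i a * cis (s a)` is in `U (c i)` for all `i ∈ S`. -/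
theorem Mx.colouring (h : Mx U) {r : ℕ} {O : Set (Fin r → ℝ)} (hO : IsOpen O)
    (hne : O.Nonempty) {ι : Type*} (S : Finset ι) (z : ι → ℂ) (n : ι → Fin r → ℂ)
    (hn : ∀ i ∈ S, ∀ s ∈ O, Two (n i) s) [NeZero k] :
    ∃ s ∈ O, ∃ c : ι → Fin k, (∀ i ∈ S, tpt (z i) (n i) s ∈ U (c i)) ∧
      (∀ i ∈ S, ∀ j ∈ S, dist (tpt (z i) (n i) s) (tpt (z j) (n j) s) = 1 → c i ≠ c j) ∧
      ∀ i ∈ S, ∀ y, dist (tpt (z i) (n i) s) y = 1 → c i ∉ Pal U y := by
  obtain ⟨O', h1, -, ⟨s, hs⟩, h2⟩ := h.generic_times hO hne S z n hn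
  classical
  have h3 : ∀ i, ∃ c, i ∈ S → tpt (z i) (n i) s ∈ U c := by
    intro i
    by_cases hi : i ∈ S
    · obtain ⟨c, hc⟩ := exists_colour (h2 s hs i hi)
      exact ⟨c, fun _ => hc⟩
    · exact ⟨0, fun h => absurd h hi⟩
  choose c hc using h3
  exact ⟨s, h1 hs, c, hc, fun i hi j hj hij => h.colour_ne (hc i hi) (hc j hj) hij,
    fun i hi y hy => h.colour_notMem (hc i hi) hy⟩

/-- adjacent points: the coefficients differ at one time only, by a unit vector -/
theorem dist_tpt {r : ℕ} {z : ℂ} {n m : Fin r → ℂ} {s : Fin r → ℝ} {a : Fin r}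
    (h1 : ∀ b, b ≠ a → n b = m b) (h2 : ‖n a - m a‖ = 1) : dist (tpt z n s) (tpt z m s) = 1 := by
  rw [dist_eq_norm]
  have : tpt z n s - tpt z m s = (n a - m a) * cis (s a) := by
    unfold tpt
    rw [add_sub_add_left_eq_sub, ← Finset.sum_sub_distrib, Finset.sum_eq_single a]
    · ring
    · intro b _ hb
      rw [h1 b hb, sub_self]
    · intro h
      exact absurd (Finset.mem_univ a) h
  rw [this, norm_mul, h2, norm_cis, one_mul]

/-- adjacent points of two systems: equal coefficients, centres at distance one -/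
theorem dist_tpt_centre {r : ℕ} (z z' : ℂ) (n : Fin r → ℂ) (s : Fin r → ℝ) :
    dist (tpt z n s) (tpt z' n s) = dist z z' := by
  unfold tpt
  rw [dist_add_right]

/-- adjacent to the centre of the circle: `n` has one coefficient, of modulus one -/
theorem dist_tpt_self {r : ℕ} {z : ℂ} {n : Fin r → ℂ} {s : Fin r → ℝ} {a : Fin r}
    (h1 : ∀ b, b ≠ a → n b = 0) (h2 : ‖n a‖ = 1) : dist (tpt z n s) z = 1 := by
  have h3 : tpt z (fun _ : Fin r => (0 : ℂ)) s = z := by simp [tpt]
  have h4 := dist_tpt (z := z) (n := n) (m := fun _ => 0) (s := s) (a := a)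
    (fun b hb => h1 b hb) (by simpa using h2)
  rwa [h3] at h4

/-- two nonzero coefficients at different times are not parallel on an open set -/
theorem exists_two {r : ℕ} {O : Set (Fin r → ℝ)} (hO : IsOpen O) (hne : O.Nonempty)
    {n : Fin r → ℂ} {a b : Fin r} (hab : a ≠ b) (ha : n a ≠ 0) (hb : n b ≠ 0) :
    ∃ O' ⊆ O, IsOpen O' ∧ O'.Nonempty ∧ ∀ s ∈ O', Two n s := by
  obtain ⟨s0, hs0⟩ := hne
  set f : (Fin r → ℝ) → ℝ := fun s => cr (n a * cis (s a)) (n b * cis (s b)) with hf
  have hcis : Continuous cis := contDiff_cis.continuous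
  have hfc : Continuous f := by
    have h1 : Continuous fun s : Fin r → ℝ => n a * cis (s a) :=
      continuous_const.mul (hcis.comp (continuous_apply a))
    have h2 : Continuous fun s : Fin r → ℝ => n b * cis (s b) :=
      continuous_const.mul (hcis.comp (continuous_apply b))
    rw [hf]
    unfold cr
    exact ((Complex.continuous_re.comp h1).mul (Complex.continuous_im.comp h2)).sub
      ((Complex.continuous_im.comp h1).mul (Complex.continuous_re.comp h2))
  have key : ∃ s ∈ O, f s ≠ 0 := by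
    by_contra hcon
    push Not at hcon
    have h0 : f s0 = 0 := hcon s0 hs0
    -- move the time `a`
    have hc : Continuous fun t : ℝ => Function.update s0 a (s0 a + t) :=
      continuous_const.update a (continuous_const.add continuous_id)
    have h1 : ∀ᶠ t in 𝓝 (0 : ℝ), Function.update s0 a (s0 a + t) ∈ O := by
      refine hc.continuousAt.eventually (hO.mem_nhds ?_)
      simpa using hs0
    have h2 : ∀ᶠ t in 𝓝[>] (0 : ℝ), Function.update s0 a (s0 a + t) ∈ O ∧ 0 < t ∧ t < 1 := by
      filter_upwards [mem_nhdsWithin_of_mem_nhds h1, self_mem_nhdsWithin,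
        mem_nhdsWithin_of_mem_nhds (Iio_mem_nhds (show (0 : ℝ) < 1 by norm_num))] with t h3 h4 h5
      exact ⟨h3, h4, h5⟩
    obtain ⟨t, ht1, ht2, ht3⟩ := h2.exists
    have h3 : f (Function.update s0 a (s0 a + t)) = 0 := hcon _ ht1
    set A := n a * cis (s0 a) with hA
    set B := n b * cis (s0 b) with hB
    have e1 : n a * cis (s0 a + t) = A * cis t := by
      have : cis (s0 a + t) = cis (s0 a) * cis t := by
        unfold cis
        rw [← Complex.exp_add]
        push_cast
        ring_nf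
      rw [hA, this]; ring
    have h4 : cr (A * cis t) B = 0 := by
      have : f (Function.update s0 a (s0 a + t)) = cr (A * cis t) B := by
        rw [hf]
        simp only [Function.update_self, Function.update_of_ne (Ne.symm hab)]
        rw [e1]
      rw [← this]; exact h3
    have h5 : cr A B = 0 := h0
    have hA0 : A ≠ 0 := mul_ne_zero ha (norm_ne_zero_iff.1 (by rw [norm_cis]; exact one_ne_zero))
    have hB0 : B ≠ 0 := mul_ne_zero hb (norm_ne_zero_iff.1 (by rw [norm_cis]; exact one_ne_zero))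
    have e2 : cr (A * cis t) B = Real.cos t * cr A B - Real.sin t * ip A B := by
      have hre : (cis t).re = Real.cos t := by unfold cis; rw [Complex.exp_ofReal_mul_I_re]
      have him : (cis t).im = Real.sin t := by unfold cis; rw [Complex.exp_ofReal_mul_I_im]
      have hmr : (A * cis t).re = A.re * Real.cos t - A.im * Real.sin t := by
        rw [Complex.mul_re, hre, him]
      have hmi : (A * cis t).im = A.re * Real.sin t + A.im * Real.cos t := by
        rw [Complex.mul_im, hre, him]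
      unfold cr ip
      rw [hmr, hmi]
      ring
    rw [e2, h5, mul_zero, zero_sub, neg_eq_zero, mul_eq_zero] at h4
    have hsin : 0 < Real.sin t := Real.sin_pos_of_pos_of_lt_pi ht2 (by linarith [Real.pi_gt_three])
    have h6 : ip A B = 0 := h4.resolve_left hsin.ne'
    have h7 : Complex.normSq A * Complex.normSq B = cr A B ^ 2 + ip A B ^ 2 := by
      unfold cr ip
      rw [Complex.normSq_apply, Complex.normSq_apply]
      ring
    rw [h5, h6] at h7
    have h8 : Complex.normSq A * Complex.normSq B ≠ 0 :=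
      mul_ne_zero (by rwa [Ne, Complex.normSq_eq_zero]) (by rwa [Ne, Complex.normSq_eq_zero])
    exact h8 (by rw [h7]; ring)
  obtain ⟨s, hs, hsf⟩ := key
  obtain ⟨O', h2, h3, h4⟩ := _root_.mem_nhds_iff.1
    ((hfc.continuousAt.eventually_ne hsf).and (hO.mem_nhds hs))
  exact ⟨O', fun t ht => (h2 ht).2, h3, ⟨s, h4⟩, fun t ht => ⟨a, b, (h2 ht).1⟩⟩

/-- the same for finitely many coefficient vectors -/
theorem exists_two_all {r : ℕ} {O : Set (Fin r → ℝ)} (hO : IsOpen O) (hne : O.Nonempty)
    {ι : Type*} (S : Finset ι) (n : ι → Fin r → ℂ)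
    (hn : ∀ i ∈ S, ∃ a b, a ≠ b ∧ n i a ≠ 0 ∧ n i b ≠ 0) :
    ∃ O' ⊆ O, IsOpen O' ∧ O'.Nonempty ∧ ∀ s ∈ O', ∀ i ∈ S, Two (n i) s := by
  classical
  induction S using Finset.induction_on with
  | empty => exact ⟨O, Subset.rfl, hO, hne, fun s _ i hi => absurd hi (Finset.notMem_empty i)⟩
  | insert a S ha ih =>
    obtain ⟨O1, h1, h2, h3, h4⟩ := ih fun i hi => hn i (Finset.mem_insert_of_mem hi)
    obtain ⟨c, d, hcd, hc, hd⟩ := hn a (Finset.mem_insert_self a S)
    obtain ⟨O2, h5, h6, h7, h8⟩ := exists_two h2 h3 hcd hc hd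
    refine ⟨O2, h5.trans h1, h6, h7, fun s hs i hi => ?_⟩
    rcases Finset.mem_insert.1 hi with rfl | hi
    · exact h8 s hs
    · exact h4 s (h5 hs) i hi

/-- **Colouring of generic points, final form**: `z i` = centre of the point `i` (several centres
allowed), `n i` = coefficients, at least two of them not zero; `O` = any nonempty open set of times
(for example a product of short intervals on which the rings of all centres have constant words).
There are times in `O` and a map `c` of colours such that: the point `i` is in `U (c i)`; points at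
distance one have different colours; the colour of a point is not in the palette of any point at
distance one. -/
theorem Mx.colouring' (h : Mx U) {r : ℕ} {O : Set (Fin r → ℝ)} (hO : IsOpen O)
    (hne : O.Nonempty) {ι : Type*} (S : Finset ι) (z : ι → ℂ) (n : ι → Fin r → ℂ)
    (hn : ∀ i ∈ S, ∃ a b, a ≠ b ∧ n i a ≠ 0 ∧ n i b ≠ 0) [NeZero k] :
    ∃ s ∈ O, ∃ c : ι → Fin k, (∀ i ∈ S, tpt (z i) (n i) s ∈ U (c i)) ∧
      (∀ i ∈ S, ∀ j ∈ S, dist (tpt (z i) (n i) s) (tpt (z j) (n j) s) = 1 → c i ≠ c j) ∧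
      ∀ i ∈ S, ∀ y, dist (tpt (z i) (n i) s) y = 1 → c i ∉ Pal U y := by
  obtain ⟨O', h1, h2, h3, h4⟩ := exists_two_all hO hne S n hn
  obtain ⟨s, hs, c, h5⟩ := h.colouring h2 h3 S z n fun i hi s hs => h4 s hs i hi
  exact ⟨s, h1 hs, c, h5⟩

/-- **cone rule**: `g` interior to an exact `ab`-arc of `S(z)`, `a` inside: near `z` a point of
colour `a` is not outside `S(g)`, a point of colour `b` is not inside `S(g)` -/
theorem Irr.cone (h : Irr U T) {z g : ℂ} {a b : Fin k} (hg : Arc T z g {a, b})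
    (hs : Sd U z g a b) :
    ∀ᶠ x in 𝓝 z, ∀ c, x ∈ U c → (1 < dist x g → c ≠ a) ∧ (dist x g < 1 → c ≠ b) := by
  filter_upwards [h.sd_center hg hs] with x hx c hc
  refine ⟨fun h1 h2 => hx.1 h1 ?_, fun h1 h2 => hx.2 h1 ?_⟩
  · rw [← h2]; exact subset_closure hc
  · rw [← h2]; exact subset_closure hc

end Vale.Agent.P032.Six
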